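import Mathlib

/-!
# P256: definitions

Hyperbolic polynomials, their hyperbolicity cones, spectrahedral shadows and the
quadratic extension `q (x₀ y - B (h, h))` of a polynomial `q`.
-/

namespace Vale.Agent.P256

open MvPolynomial

/-- A real polynomial `p` is hyperbolic with respect to `e`: it is homogeneous, `p(e) > 0`, and for
every real vector `x` all the complex roots `t` of `t ↦ p(t e - x)` are real. -/
def Hyperbolic {σ : Type} (p : MvPolynomial σ ℝ) (e : σ → ℝ) : Prop :=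
  (∃ D : ℕ, p.IsHomogeneous D) ∧ 0 < eval e p ∧
    ∀ (x : σ → ℝ) (t : ℂ), aeval (fun i => t * (e i : ℂ) - (x i : ℂ)) p = 0 → t.im = 0

/-- The closed hyperbolicity cone: all `x` such that every root of `t ↦ p(t e - x)` is `≥ 0`. -/
def hcone {σ : Type} (p : MvPolynomial σ ℝ) (e : σ → ℝ) : Set (σ → ℝ) :=
  {x | ∀ t : ℝ, eval (fun i => t * e i - x i) p = 0 → 0 ≤ t}

/-- A set is a spectrahedral shadow: it has a finite semidefinite lift. -/
def IsShadow {σ : Type} [Fintype σ] (K : Set (σ → ℝ)) : Prop :=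
  ∃ (N a : ℕ) (A₀ : Matrix (Fin N) (Fin N) ℝ) (A : σ → Matrix (Fin N) (Fin N) ℝ)
    (B : Fin a → Matrix (Fin N) (Fin N) ℝ),
    A₀.IsSymm ∧ (∀ i, (A i).IsSymm) ∧ (∀ j, (B j).IsSymm) ∧
    K = {x | ∃ u : Fin a → ℝ, (A₀ + ∑ i, x i • A i + ∑ j, u j • B j).PosSemidef}

/-- The quadratic map `h ↦ B(h, h)` with coefficient vectors `b j k = B(e_j, e_k)`. -/
def quad {σ τ : Type} [Fintype τ] (b : τ → τ → σ → ℝ) (h : τ → ℝ) : σ → ℝ :=
  fun i => ∑ j, ∑ k, b j k i * (h j * h k)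

/-- The quadratic extension `p(x₀, y, h) = q(x₀ y - B(h, h))` of the polynomial `q(y)`. -/
noncomputable def qext {σ τ : Type} [Fintype τ] (q : MvPolynomial σ ℝ) (b : τ → τ → σ → ℝ) :
    MvPolynomial (Unit ⊕ σ ⊕ τ) ℝ :=
  bind₁ (fun i => X (Sum.inl ()) * X (Sum.inr (Sum.inl i)) -
    ∑ j, ∑ k, C (b j k i) * (X (Sum.inr (Sum.inr j)) * X (Sum.inr (Sum.inr k)))) q

/-- The direction `(1, e, 0)`. -/
def edir {σ τ : Type} (e : σ → ℝ) : (Unit ⊕ σ ⊕ τ) → ℝ :=
  Sum.elim (fun _ => 1) (Sum.elim e (fun _ => 0))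

end Vale.Agent.P256
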