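import Vale.Agent.P256.Poly

/-!
# P256: the quadratic extension of a hyperbolic polynomial
-/

namespace Vale.Agent.P256

open MvPolynomial Complex

namespace HypFun

variable {σ : Type} [Fintype σ] {D : ℕ} {f : (σ → ℂ) → ℂ} {e : σ → ℝ}

/-- No zeros for `Im t > 0`. -/
lemma ext_upper (H : HypFun D f e) (x₀ : ℝ) (y : σ → ℝ) {B : σ → ℝ} (hB : B ∈ Kc f e) (t : ℂ)
    (ht : 0 < t.im) : f ((t - x₀) • (t • cx e - cx y) - cx B) ≠ 0 := by
  have hwim : (t - x₀).im = t.im := by simp
  have hw : t - x₀ ≠ 0 := by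
    intro h
    rw [h] at hwim
    simp at hwim
    linarith
  set w : ℂ := t - x₀ with hwdef
  have hinv : (w⁻¹).im ≤ 0 := by
    rw [Complex.inv_im, hwim]
    apply div_nonpos_of_nonpos_of_nonneg (by linarith) (Complex.normSq_nonneg _)
  have h1 : w • (t • cx e - cx y) - cx B = w • (t • cx e - cx y - w⁻¹ • cx B) := by
    rw [smul_sub w _ (w⁻¹ • cx B), smul_smul, mul_inv_cancel₀ hw, one_smul]
  have h2 : t • cx e - cx y - w⁻¹ • cx B =
      cx (t.re • e - y - (w⁻¹).re • B) + I • cx (t.im • e + (-(w⁻¹).im) • B) := by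
    generalize w⁻¹ = w'
    funext i
    apply Complex.ext
    · simp [cx]
    · simp [cx]
      ring
  rw [h1, H.hom, h2]
  exact mul_ne_zero (pow_ne_zero _ hw) (H.G1 _ (H.smul_mem (by linarith) hB) ht)

/-- No zeros for `Im t ≠ 0`. -/
lemma ext_im (H : HypFun D f e) (x₀ : ℝ) (y : σ → ℝ) {B : σ → ℝ} (hB : B ∈ Kc f e) (t : ℂ)
    (h0 : f ((t - x₀) • (t • cx e - cx y) - cx B) = 0) : t.im = 0 := by
  rcases lt_trichotomy t.im 0 with h | h | h
  · exfalso
    have h1 := H.ext_upper x₀ y hB ((starRingEnd ℂ) t) (by simpa using h)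
    apply h1
    have h2 := H.conj ((t - x₀) • (t • cx e - cx y) - cx B)
    rw [h0, map_zero] at h2
    rw [← h2]
    congr 1
    funext i
    simp [cx]
  · exact h
  · exact absurd h0 (H.ext_upper x₀ y hB t h)

/-- The cone of the quadratic extension. -/
lemma cone_iff (H : HypFun D f e) (x₀ : ℝ) (y : σ → ℝ) {B : σ → ℝ} (hB : B ∈ Kc f e) :
    (∀ s : ℝ, 0 < s → f (cx ((s + x₀) • (s • e + y) - B)) ≠ 0) ↔
      0 ≤ x₀ ∧ y ∈ Kc f e ∧ x₀ • y - B ∈ Kc f e := by
  constructor
  · intro hne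
    -- the path is in the open cone for large s
    obtain ⟨C₁, hC₁, h1⟩ := H.absorb (x₀ • e + y)
    obtain ⟨C₂, hC₂, h2⟩ := H.absorb (x₀ • y - B)
    have hlarge : ∀ s : ℝ, C₁ + C₂ + 1 ≤ s → (s + x₀) • (s • e + y) - B ∈ Ko f e := by
      intro s hs
      have hs0 : 0 < s := by linarith
      have h3 := H.add_mem (H.smul_mem hs0.le h1) h2
      have hpos : 0 < s * s - s * C₁ - C₂ := by nlinarith
      have h4 := Kc_add_e h3 hpos
      have h5 : (s * s - s * C₁ - C₂) • e + (s • (C₁ • e + (x₀ • e + y)) + (C₂ • e + (x₀ • y - B))) =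
          (s + x₀) • (s • e + y) - B := by module
      rw [h5] at h4
      exact h4
    have hall : ∀ s : ℝ, 0 < s → (s + x₀) • (s • e + y) - B ∈ Ko f e := by
      intro s hs
      have hL : 0 < C₁ + C₂ + 1 := by linarith
      have h3 := H.path (fun r => ((((1 - r) * (C₁ + C₂ + 1) + r * s) + x₀) •
        (((1 - r) * (C₁ + C₂ + 1) + r * s) • e + y) - B))
        (by fun_prop)
        (by
          intro r hr0 hr1
          apply hne
          rcases hr0.eq_or_lt with h | h
          · rw [← h]; linarith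
          · have : 0 < r * s := mul_pos h hs
            have : 0 ≤ (1 - r) * (C₁ + C₂ + 1) := mul_nonneg (by linarith) hL.le
            linarith)
        (by
          have h4 := hlarge (C₁ + C₂ + 1) le_rfl
          simpa using h4)
      simpa using h3
    have hx0 : 0 ≤ x₀ := by
      by_contra hneg
      push Not at hneg
      have h3 := hall (-x₀) (by linarith)
      have h4 : (-x₀ + x₀) • ((-x₀) • e + y) - B = -B := by
        rw [neg_add_cancel, zero_smul, zero_sub]
      rw [h4] at h3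
      exact H.not_neg hB h3
    refine ⟨hx0, ?_, ?_⟩
    · apply H.closed_e
      intro s hs
      have h3 := H.add_mem (Ko_sub_Kc (hall s hs)) hB
      rw [sub_add_cancel] at h3
      have h4 := H.smul_mem (inv_nonneg.mpr (by linarith : (0 : ℝ) ≤ s + x₀)) h3
      rwa [smul_smul, inv_mul_cancel₀ (by linarith : s + x₀ ≠ 0), one_smul] at h4
    · obtain ⟨C, hC, h3⟩ := H.absorb (-(x₀ • e + y))
      apply H.closed_e
      intro t ht
      -- choose s small
      obtain ⟨s, hs0, hs1⟩ : ∃ s : ℝ, 0 < s ∧ s * s + s * C ≤ t := by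
        refine ⟨min 1 (t / (1 + C)), lt_min one_pos (by positivity), ?_⟩
        have h5 : min 1 (t / (1 + C)) ≤ 1 := min_le_left _ _
        have h6 : min 1 (t / (1 + C)) ≤ t / (1 + C) := min_le_right _ _
        have h7 : 0 < min 1 (t / (1 + C)) := lt_min one_pos (by positivity)
        have h8 : min 1 (t / (1 + C)) * (1 + C) ≤ t := by
          rw [← le_div_iff₀ (by linarith)]
          exact h6
        nlinarith
      have h4 := H.add_mem (H.add_mem (Ko_sub_Kc (hall s hs0)) (H.smul_mem hs0.le h3))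
        (H.smul_mem (sub_nonneg.mpr hs1) H.e_mem)
      have h5 : (s + x₀) • (s • e + y) - B + s • (C • e + -(x₀ • e + y)) +
          (t - (s * s + s * C)) • e = t • e + (x₀ • y - B) := by module
      rw [h5] at h4
      exact h4
  · rintro ⟨hx0, hy, hd⟩ s hs
    have h1 := H.add_mem (H.add_mem (H.smul_mem (mul_nonneg hs.le hx0) H.e_mem)
      (H.smul_mem hs.le hy)) hd
    have h2 := Ko_ne (Kc_add_e h1 (mul_pos hs hs))
    have h3 : (s * s) • e + ((s * x₀) • e + s • y + (x₀ • y - B)) =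
        (s + x₀) • (s • e + y) - B := by module
    rw [h3] at h2
    exact h2

end HypFun

variable {σ τ : Type} [Fintype σ] [Fintype τ]

lemma aeval_qext {A : Type} [CommRing A] [Algebra ℝ A] (q : MvPolynomial σ ℝ)
    (b : τ → τ → σ → ℝ) (z : Unit ⊕ σ ⊕ τ → A) :
    aeval z (qext q b) = aeval (fun i => z (Sum.inl ()) * z (Sum.inr (Sum.inl i)) -
      ∑ j, ∑ k, algebraMap ℝ A (b j k i) * (z (Sum.inr (Sum.inr j)) * z (Sum.inr (Sum.inr k)))) q := by
  rw [qext, aeval_bind₁]
  congr 2
  funext i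
  simp [map_sum]

lemma qext_homog {q : MvPolynomial σ ℝ} {D : ℕ} (hD : q.IsHomogeneous D) (b : τ → τ → σ → ℝ) :
    (qext q b).IsHomogeneous (2 * D) := by
  apply hD.aeval
  intro i
  apply IsHomogeneous.sub
  · exact (isHomogeneous_X ℝ _).mul (isHomogeneous_X ℝ _)
  · apply IsHomogeneous.sum
    intro j _
    apply IsHomogeneous.sum
    intro k _
    exact ((isHomogeneous_C _ _).mul ((isHomogeneous_X ℝ _).mul (isHomogeneous_X ℝ _)))

/-- The quadratic extension is hyperbolic. -/
theorem hyperbolic_qext {q : MvPolynomial σ ℝ} {e : σ → ℝ} (hq : Hyperbolic q e)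
    {D : ℕ} (hD : q.IsHomogeneous D) (hpos : 0 < D) (b : τ → τ → σ → ℝ)
    (hb : ∀ h : τ → ℝ, quad b h ∈ hcone q e) : Hyperbolic (qext q b) (edir (τ := τ) e) := by
  have H := hypFun hq hD hpos
  refine ⟨⟨_, qext_homog hD b⟩, ?_, ?_⟩
  · have h1 : eval (edir (τ := τ) e) (qext q b) = eval e q := by
      have h2 := aeval_qext q b (edir (τ := τ) e)
      have h3 : ∀ (ι : Type) (x : ι → ℝ) (p : MvPolynomial ι ℝ), aeval x p = eval x p := by
        intro ι x p
        rw [aeval_def]; rfl
      rw [h3, h3] at h2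
      rw [h2]
      congr 2
      funext i
      simp [edir]
    rw [h1]
    exact hq.2.1
  · intro x t ht
    have hB : quad b (fun j => x (Sum.inr (Sum.inr j))) ∈ Kc (fun w => aeval w q) e := by
      rw [← hcone_eq hD]; exact hb _
    apply H.ext_im (x (Sum.inl ())) (fun i => x (Sum.inr (Sum.inl i))) hB t
    rw [← ht, aeval_qext]
    congr 2
    funext i
    simp [edir, cx, quad]

/-- The cone of the quadratic extension. -/
theorem hcone_qext {q : MvPolynomial σ ℝ} {e : σ → ℝ} (hq : Hyperbolic q e)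
    {D : ℕ} (hD : q.IsHomogeneous D) (hpos : 0 < D) (b : τ → τ → σ → ℝ)
    (hb : ∀ h : τ → ℝ, quad b h ∈ hcone q e) :
    hcone (qext q b) (edir (τ := τ) e) = {x : (Unit ⊕ σ ⊕ τ) → ℝ | 0 ≤ x (Sum.inl ()) ∧
      (fun i => x (Sum.inr (Sum.inl i))) ∈ hcone q e ∧
      (fun i => x (Sum.inl ()) * x (Sum.inr (Sum.inl i)) -
        quad b (fun j => x (Sum.inr (Sum.inr j))) i) ∈ hcone q e} := by
  have H := hypFun hq hD hpos
  rw [hcone_eq (qext_homog hD b)]
  ext x
  have hB : quad b (fun j => x (Sum.inr (Sum.inr j))) ∈ Kc (fun w => aeval w q) e := by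
    rw [← hcone_eq hD]; exact hb _
  have key := H.cone_iff (x (Sum.inl ())) (fun i => x (Sum.inr (Sum.inl i))) hB
  rw [Set.mem_ofPred_eq, hcone_eq hD]
  refine Iff.trans ?_ key
  apply forall_congr'
  intro s
  apply imp_congr_right
  intro _
  have h1 : aeval (((s : ℝ) : ℂ) • cx (edir (τ := τ) e) + cx x) (qext q b) =
      aeval (cx ((s + x (Sum.inl ())) • (s • e + (fun i => x (Sum.inr (Sum.inl i)))) -
        quad b (fun j => x (Sum.inr (Sum.inr j))))) q := by
    rw [aeval_qext]
    congr 2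
    funext i
    simp [edir, cx, quad]
    ring
  exact not_congr (by rw [← h1])

end Vale.Agent.P256
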