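import Vale.Agent.P256.Homotopy

/-!
# P256: the needed part of Garding's theory
-/

namespace Vale.Agent.P256

open Complex Set Filter Topology

/-- A real vector as a complex vector. -/
def cx {σ : Type} (x : σ → ℝ) : σ → ℂ := fun i => (x i : ℂ)

lemma cx_add {σ : Type} (x y : σ → ℝ) : cx (x + y) = cx x + cx y := by
  funext i; simp [cx]

lemma cx_sub {σ : Type} (x y : σ → ℝ) : cx (x - y) = cx x - cx y := by
  funext i; simp [cx]

lemma cx_neg {σ : Type} (x : σ → ℝ) : cx (-x) = -cx x := by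
  funext i; simp [cx]

lemma cx_zero {σ : Type} : cx (0 : σ → ℝ) = 0 := by
  funext i; simp [cx]

lemma cx_smul {σ : Type} (c : ℝ) (x : σ → ℝ) : cx (c • x) = (c : ℂ) • cx x := by
  funext i; simp [cx]

lemma continuous_cx {σ : Type} : Continuous (cx : (σ → ℝ) → σ → ℂ) := by
  apply continuous_pi
  intro i
  exact Complex.continuous_ofReal.comp (continuous_apply i)

/-- The analytic data of a hyperbolic polynomial. -/
structure HypFun {σ : Type} [Fintype σ] (D : ℕ) (f : (σ → ℂ) → ℂ) (e : σ → ℝ) : Prop where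
  Dpos : 0 < D
  cont : Continuous f
  hom : ∀ (c : ℂ) (w : σ → ℂ), f (c • w) = c ^ D * f w
  fac : ∀ u v : σ → ℂ, f v ≠ 0 → ∃ m : Multiset ℂ, Multiset.card m = D ∧
    ∀ β : ℂ, f (u + β • v) = f v * (m.map (fun z => β - z)).prod
  conj : ∀ w : σ → ℂ, f (fun i => (starRingEnd ℂ) (w i)) = (starRingEnd ℂ) (f w)
  ene : f (cx e) ≠ 0
  hyp : ∀ (x : σ → ℝ) (β : ℂ), f (β • cx e + cx x) = 0 → β.im = 0

/-- The closed cone. -/
def Kc {σ : Type} (f : (σ → ℂ) → ℂ) (e : σ → ℝ) : Set (σ → ℝ) :=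
  {x | ∀ s : ℝ, 0 < s → f ((s : ℂ) • cx e + cx x) ≠ 0}

/-- The open cone. -/
def Ko {σ : Type} (f : (σ → ℂ) → ℂ) (e : σ → ℝ) : Set (σ → ℝ) :=
  {x | ∀ s : ℝ, 0 ≤ s → f ((s : ℂ) • cx e + cx x) ≠ 0}

namespace HypFun

variable {σ : Type} [Fintype σ] {D : ℕ} {f : (σ → ℂ) → ℂ} {e : σ → ℝ}

lemma zero (H : HypFun D f e) : f 0 = 0 := by
  have := H.hom 0 0
  rw [smul_zero, zero_pow H.Dpos.ne', zero_mul] at this
  exact this

lemma Ko_re (H : HypFun D f e) {x : σ → ℝ} (hx : x ∈ Ko f e) (β : ℂ) (hβ : 0 ≤ β.re) :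
    f (β • cx e + cx x) ≠ 0 := by
  intro h
  have him := H.hyp x β h
  have : β = ((β.re : ℝ) : ℂ) := by
    apply Complex.ext <;> simp [him]
  rw [this] at h
  exact hx β.re hβ h

lemma Kc_re (H : HypFun D f e) {x : σ → ℝ} (hx : x ∈ Kc f e) (β : ℂ) (hβ : 0 < β.re) :
    f (β • cx e + cx x) ≠ 0 := by
  intro h
  have him := H.hyp x β h
  have : β = ((β.re : ℝ) : ℂ) := by
    apply Complex.ext <;> simp [him]
  rw [this] at h
  exact hx β.re hβ h

lemma Ko_sub_Kc {x : σ → ℝ} (hx : x ∈ Ko f e) : x ∈ Kc f e := fun s hs => hx s hs.le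

lemma Kc_add_e {x : σ → ℝ} (hx : x ∈ Kc f e) {s : ℝ} (hs : 0 < s) : s • e + x ∈ Ko f e := by
  intro t ht
  have := hx (t + s) (by linarith)
  rw [cx_add, cx_smul, ← add_assoc, ← add_smul]
  push_cast at this
  exact this

lemma Kc_of_Ko {x : σ → ℝ} (h : ∀ s : ℝ, 0 < s → s • e + x ∈ Ko f e) : x ∈ Kc f e := by
  intro s hs
  have := h s hs 0 le_rfl
  rw [cx_add, cx_smul] at this
  simpa using this

lemma zero_mem (H : HypFun D f e) : (0 : σ → ℝ) ∈ Kc f e := by
  intro s hs
  rw [cx_zero, add_zero, H.hom]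
  exact mul_ne_zero (pow_ne_zero _ (by exact_mod_cast hs.ne')) H.ene

lemma Ko_ne {x : σ → ℝ} (hx : x ∈ Ko f e) : f (cx x) ≠ 0 := by
  have := hx 0 le_rfl
  simpa using this

lemma smul_mem (H : HypFun D f e) {c : ℝ} (hc : 0 ≤ c) {x : σ → ℝ} (hx : x ∈ Kc f e) :
    c • x ∈ Kc f e := by
  rcases hc.eq_or_lt with h | h
  · rw [← h, zero_smul]; exact H.zero_mem
  · intro s hs
    have h1 : ((s : ℝ) : ℂ) • cx e + cx (c • x) = (c : ℂ) • (((s / c : ℝ) : ℂ) • cx e + cx x) := by
      rw [cx_smul, smul_add, smul_smul]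
      congr 2
      push_cast
      have : (c : ℂ) ≠ 0 := by exact_mod_cast h.ne'
      field_simp
    rw [h1, H.hom]
    exact mul_ne_zero (pow_ne_zero _ (by exact_mod_cast h.ne')) (hx _ (by positivity))

/-- (G0) for `b'` in the open cone and `Re α ≥ 0`, `s > 0`: `f (s e + α b') ≠ 0`. -/
lemma G0 (H : HypFun D f e) {b : σ → ℝ} (hb : b ∈ Ko f e) {s : ℝ} (hs : 0 < s) (α : ℂ)
    (hα : 0 ≤ α.re) : f ((s : ℂ) • cx e + α • cx b) ≠ 0 := by
  have hsc : (s : ℂ) ≠ 0 := by exact_mod_cast hs.ne'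
  by_cases h0 : α = 0
  · rw [h0, zero_smul, add_zero, H.hom]
    exact mul_ne_zero (pow_ne_zero _ hsc) H.ene
  · have h1 : (s : ℂ) • cx e + α • cx b = α • ((s * α⁻¹) • cx e + cx b) := by
      rw [smul_add, smul_smul]
      congr 2
      field_simp
    rw [h1, H.hom]
    apply mul_ne_zero (pow_ne_zero _ h0)
    apply H.Ko_re hb
    rw [Complex.re_ofReal_mul, Complex.inv_re]
    apply mul_nonneg hs.le
    exact div_nonneg hα (Complex.normSq_nonneg _)

/-- (G1) no zeros in the tube over the open cone. -/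
lemma G1 (H : HypFun D f e) (x : σ → ℝ) {b : σ → ℝ} (hb : b ∈ Kc f e) {s : ℝ} (hs : 0 < s) :
    f (cx x + I • cx (s • e + b)) ≠ 0 := by
  have hb' : (s / 2) • e + b ∈ Ko f e := Kc_add_e hb (by linarith)
  have key := homotopy H.cont H.hom H.fac (I • cx ((s / 2) • e + b))
    (by rw [H.hom]; exact mul_ne_zero (pow_ne_zero _ I_ne_zero) (Ko_ne hb'))
    (fun r => (r : ℂ) • cx x + (((s / 2 : ℝ) : ℂ) * I) • cx e)
    (by
      apply Continuous.add _ continuous_const
      exact Continuous.smul Complex.continuous_ofReal continuous_const)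
    (by
      intro r _ _ y hzero
      have h1 : (r : ℂ) • cx x + (((s / 2 : ℝ) : ℂ) * I) • cx e +
          ((y : ℂ) * I) • (I • cx ((s / 2) • e + b)) =
          (((s / 2 : ℝ) : ℂ) * I) • cx e + cx (r • x - y • ((s / 2) • e + b)) := by
        rw [cx_sub, cx_smul, cx_smul, smul_smul, mul_assoc, I_mul_I, mul_neg, mul_one, neg_smul]
        abel
      rw [h1] at hzero
      have := H.hyp _ _ hzero
      simp at this
      linarith)
    (by
      intro β hβ
      have h1 : ((0 : ℝ) : ℂ) • cx x + (((s / 2 : ℝ) : ℂ) * I) • cx e +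
          β • (I • cx ((s / 2) • e + b)) =
          I • (((s / 2 : ℝ) : ℂ) • cx e + β • cx ((s / 2) • e + b)) := by
        rw [Complex.ofReal_zero, zero_smul, zero_add, smul_add, smul_smul, smul_smul, smul_smul,
          mul_comm I β, mul_comm I ((s / 2 : ℝ) : ℂ)]
      rw [h1, H.hom]
      exact mul_ne_zero (pow_ne_zero _ I_ne_zero) (H.G0 hb' (by linarith) β hβ))
    1 zero_le_one le_rfl 1 (by simp)
  intro hzero
  apply key
  rw [← hzero]
  congr 1
  rw [Complex.ofReal_one, one_smul, one_smul, add_assoc]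
  congr 1
  rw [mul_comm, ← smul_smul, ← smul_add, ← cx_smul, ← cx_add, ← add_assoc, ← add_smul]
  congr 3
  ring_nf

lemma G1neg (H : HypFun D f e) (x : σ → ℝ) {b : σ → ℝ} (hb : b ∈ Kc f e) {s : ℝ} (hs : 0 < s) :
    f (cx x - I • cx (s • e + b)) ≠ 0 := by
  intro h
  apply H.G1 x hb hs
  have h1 := H.conj (cx x - I • cx (s • e + b))
  rw [h, map_zero] at h1
  rw [← h1]
  congr 1
  funext i
  simp [cx]

/-- (G2) the cone is closed under addition. -/
lemma add_mem (H : HypFun D f e) {b c : σ → ℝ} (hb : b ∈ Kc f e) (hc : c ∈ Kc f e) :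
    b + c ∈ Kc f e := by
  intro s hs
  have hs2 : 0 < s / 2 := by linarith
  have hc' : (s / 2) • e + c ∈ Ko f e := Kc_add_e hc hs2
  have key := homotopy H.cont H.hom H.fac (cx ((s / 2) • e + c)) (Ko_ne hc')
    (fun r => (r : ℂ) • cx b + ((s / 2 : ℝ) : ℂ) • cx e)
    (by
      apply Continuous.add _ continuous_const
      exact Continuous.smul Complex.continuous_ofReal continuous_const)
    (by
      intro r hr0 _ y
      rcases lt_trichotomy y 0 with hy | hy | hy
      · have h1 : (r : ℂ) • cx b + ((s / 2 : ℝ) : ℂ) • cx e +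
          ((y : ℂ) * I) • cx ((s / 2) • e + c) =
          cx (r • b + (s / 2) • e) - I • cx ((-y * (s / 2)) • e + (-y) • c) := by
          simp only [cx_add, cx_smul, smul_add, smul_smul]
          push_cast
          module
        rw [h1]
        exact H.G1neg _ (H.smul_mem (by linarith) hc) (by nlinarith)
      · rw [hy, Complex.ofReal_zero, zero_mul, zero_smul, add_zero, add_comm, ← cx_smul r b]
        exact H.smul_mem hr0 hb _ hs2
      · have h1 : (r : ℂ) • cx b + ((s / 2 : ℝ) : ℂ) • cx e +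
          ((y : ℂ) * I) • cx ((s / 2) • e + c) =
          cx (r • b + (s / 2) • e) + I • cx ((y * (s / 2)) • e + y • c) := by
          simp only [cx_add, cx_smul, smul_add, smul_smul]
          push_cast
          module
        rw [h1]
        exact H.G1 _ (H.smul_mem hy.le hc) (by positivity))
    (by
      intro β hβ
      have h1 : ((0 : ℝ) : ℂ) • cx b + ((s / 2 : ℝ) : ℂ) • cx e + β • cx ((s / 2) • e + c) =
          ((s / 2 : ℝ) : ℂ) • cx e + β • cx ((s / 2) • e + c) := by
        rw [Complex.ofReal_zero, zero_smul, zero_add]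
      rw [h1]
      exact H.G0 hc' hs2 β hβ)
    1 zero_le_one le_rfl 1 (by simp)
  intro hzero
  apply key
  rw [← hzero]
  congr 1
  simp only [cx_add, cx_smul]
  push_cast
  module

/-- closedness of the cone in the needed form -/
lemma closed_e (H : HypFun D f e) {x : σ → ℝ} (h : ∀ s : ℝ, 0 < s → s • e + x ∈ Kc f e) :
    x ∈ Kc f e := by
  intro s hs
  have h1 := h (s / 2) (by linarith) (s / 2) (by linarith)
  intro hzero
  apply h1
  rw [← hzero]
  congr 1
  simp only [cx_add, cx_smul]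
  push_cast
  module

lemma e_mem (H : HypFun D f e) : e ∈ Kc f e := by
  intro s hs
  have h1 : ((s : ℝ) : ℂ) • cx e + cx e = ((s : ℂ) + 1) • cx e := by module
  rw [h1, H.hom]
  apply mul_ne_zero (pow_ne_zero _ _) H.ene
  have : ((s + 1 : ℝ) : ℂ) ≠ 0 := by exact_mod_cast (by linarith : (s + 1 : ℝ) ≠ 0)
  push_cast at this
  exact this

/-- the cone is absorbing in the direction `e` -/
lemma absorb (H : HypFun D f e) (v : σ → ℝ) : ∃ C : ℝ, 0 ≤ C ∧ C • e + v ∈ Kc f e := by
  obtain ⟨m, -, hm⟩ := H.fac (cx v) (cx e) H.ene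
  -- all roots have modulus at most the sum of the moduli
  let C : ℝ := (m.map (fun z => ‖z‖)).sum
  have hC0 : 0 ≤ C := by
    apply Multiset.sum_nonneg
    intro x hx
    obtain ⟨z, -, rfl⟩ := Multiset.mem_map.mp hx
    exact norm_nonneg z
  refine ⟨C, hC0, ?_⟩
  intro s hs hzero
  have h1 : (s : ℂ) • cx e + cx (C • e + v) = cx v + (((s + C : ℝ)) : ℂ) • cx e := by
    simp only [cx_add, cx_smul]
    push_cast
    module
  rw [h1, hm] at hzero
  rcases mul_eq_zero.mp hzero with h2 | h2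
  · exact H.ene h2
  · rw [Multiset.prod_eq_zero_iff] at h2
    obtain ⟨z, hz, hz0⟩ := Multiset.mem_map.mp h2
    have h3 : z = ((s + C : ℝ) : ℂ) := by rw [sub_eq_zero] at hz0; exact hz0.symm
    have h4 : ‖z‖ ≤ C := by
      apply Multiset.single_le_sum
      · intro x hx
        obtain ⟨z, -, rfl⟩ := Multiset.mem_map.mp hx
        exact norm_nonneg z
      · exact Multiset.mem_map.mpr ⟨z, hz, rfl⟩
    rw [h3, Complex.norm_real, Real.norm_eq_abs, abs_of_nonneg (by linarith)] at h4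
    linarith

lemma closed (H : HypFun D f e) (a : σ → ℝ) (ha : a ∈ Kc f e) (x : σ → ℝ)
    (h : ∀ ε : ℝ, 0 < ε → ε • a + x ∈ Kc f e) : x ∈ Kc f e := by
  obtain ⟨C, hC, hCa⟩ := H.absorb (-a)
  apply H.closed_e
  intro s hs
  have hε : 0 < s / (C + 1) := by positivity
  have h1 := H.add_mem (H.smul_mem hε.le hCa) (h _ hε)
  have h2 := H.add_mem h1 (H.smul_mem hε.le H.e_mem)
  have h3 : (s / (C + 1)) • (C • e + -a) + ((s / (C + 1)) • a + x) + (s / (C + 1)) • e =
      s • e + x := by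
    have : s / (C + 1) * C + s / (C + 1) = s := by field_simp
    calc _ = (s / (C + 1) * C + s / (C + 1)) • e + x := by module
      _ = s • e + x := by rw [this]
  rw [h3] at h2
  exact h2

/-- a path without zeros that starts in the open cone stays in the open cone -/
lemma path (H : HypFun D f e) (z : ℝ → σ → ℝ) (hz : Continuous z)
    (hne : ∀ r : ℝ, 0 ≤ r → r ≤ 1 → f (cx (z r)) ≠ 0) (h0 : z 0 ∈ Ko f e) : z 1 ∈ Ko f e := by
  have key := homotopy H.cont H.hom H.fac (cx e) H.ene (fun r => cx (z r))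
    (continuous_cx.comp hz)
    (by
      intro r hr0 hr1 y hzero
      rw [add_comm] at hzero
      have h1 := H.hyp _ _ hzero
      simp at h1
      rw [h1] at hzero
      simp at hzero
      exact hne r hr0 hr1 hzero)
    (by
      intro β hβ
      rw [add_comm]
      exact H.Ko_re h0 β hβ)
    1 zero_le_one le_rfl
  intro s hs
  have := key (s : ℂ) (by simpa using hs)
  rw [add_comm] at this
  exact this

/-- the negative of a point of the closed cone is not in the open cone -/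
lemma not_neg (H : HypFun D f e) {b : σ → ℝ} (hb : b ∈ Kc f e) : -b ∉ Ko f e := by
  intro hn
  obtain ⟨m, hm, hfac⟩ := H.fac (cx (-b)) (cx e) H.ene
  have hcard : 0 < Multiset.card m := by rw [hm]; exact H.Dpos
  obtain ⟨z, hz⟩ := Multiset.card_pos_iff_exists_mem.mp hcard
  have hz0 : f (z • cx e + cx (-b)) = 0 := by
    rw [add_comm, hfac z]
    have : (m.map (fun w => z - w)).prod = 0 := by
      apply Multiset.prod_eq_zero
      rw [Multiset.mem_map]
      exact ⟨z, hz, sub_self z⟩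
    rw [this, mul_zero]
  have hre : z.re < 0 := by
    by_contra h
    push Not at h
    exact H.Ko_re hn z h hz0
  have h2 : f ((-z) • cx e + cx b) = 0 := by
    have h3 : (-z) • cx e + cx b = (-1 : ℂ) • (z • cx e + cx (-b)) := by
      rw [cx_neg]
      module
    rw [h3, H.hom, hz0, mul_zero]
  exact H.Kc_re hb (-z) (by simpa using hre) h2

end HypFun

end Vale.Agent.P256
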