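import Vale.Agent.P256.Defs

/-!
# P256: a homotopy lemma for the zeros of polynomials in a half-plane
-/

namespace Vale.Agent.P256

open Complex Set Filter Topology

/-- A product of factors `β - z` is at least `c ^ card` when each factor is at least `c`. -/
lemma pow_card_le_norm_prod (m : Multiset ℂ) (β : ℂ) (c : ℝ) (hc : 0 ≤ c)
    (h : ∀ z ∈ m, c ≤ ‖β - z‖) :
    c ^ (Multiset.card m) ≤ ‖(m.map (fun z => β - z)).prod‖ := by
  induction m using Multiset.induction_on with
  | empty => simp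
  | cons a s ih =>
    have h1 : c ≤ ‖β - a‖ := h a (Multiset.mem_cons_self a s)
    have h2 := ih (fun z hz => h z (Multiset.mem_cons_of_mem hz))
    rw [Multiset.card_cons, Multiset.map_cons, Multiset.prod_cons, norm_mul, pow_succ, mul_comm]
    exact mul_le_mul h1 h2 (pow_nonneg hc _) (norm_nonneg _)

/-- If the zeros of `β ↦ f (u r + β v)` avoid the imaginary axis for all `r` in `[0,1]` and the closed
right half-plane for `r = 0`, then they avoid it for all `r` in `[0,1]`. -/
theorem homotopy {σ : Type} [Fintype σ] {D : ℕ} {f : (σ → ℂ) → ℂ} (cont : Continuous f)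
    (hom : ∀ (c : ℂ) (w : σ → ℂ), f (c • w) = c ^ D * f w)
    (fac : ∀ u v : σ → ℂ, f v ≠ 0 → ∃ m : Multiset ℂ, Multiset.card m = D ∧
      ∀ β : ℂ, f (u + β • v) = f v * (m.map (fun z => β - z)).prod)
    (v : σ → ℂ) (hv : f v ≠ 0) (u : ℝ → σ → ℂ) (hu : Continuous u)
    (hb : ∀ r : ℝ, 0 ≤ r → r ≤ 1 → ∀ y : ℝ, f (u r + ((y : ℂ) * I) • v) ≠ 0)
    (h0 : ∀ β : ℂ, 0 ≤ β.re → f (u 0 + β • v) ≠ 0) :
    ∀ r : ℝ, 0 ≤ r → r ≤ 1 → ∀ β : ℂ, 0 ≤ β.re → f (u r + β • v) ≠ 0 := by
  -- work on the unit interval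
  let U : unitInterval → σ → ℂ := fun r => u r
  have hU : Continuous U := hu.comp continuous_subtype_val
  let S : Set unitInterval := {r | ∃ β : ℂ, 0 ≤ β.re ∧ f (U r + β • v) = 0}
  -- bound on u
  obtain ⟨M, hM⟩ := (isCompact_univ (X := unitInterval)).exists_bound_of_continuousOn hU.continuousOn
  obtain ⟨δ, hδ, hδ'⟩ : ∃ δ > 0, ∀ w : σ → ℂ, ‖w - v‖ < δ → f w ≠ 0 := by
    have : ∀ᶠ w in 𝓝 v, f w ≠ 0 := cont.continuousAt.eventually_ne hv
    obtain ⟨δ, hδ, h⟩ := Metric.eventually_nhds_iff.mp this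
    exact ⟨δ, hδ, fun w hw => h (by rwa [dist_eq_norm])⟩
  have hM0 : 0 ≤ M := le_trans (norm_nonneg _) (hM 0 (mem_univ _))
  have hbig : ∀ (r : unitInterval) (β : ℂ), f (U r + β • v) = 0 → ‖β‖ ≤ M / δ := by
    intro r β hβ
    by_contra hlt
    push Not at hlt
    have hβ0 : 0 < ‖β‖ := lt_of_le_of_lt (by positivity) hlt
    have hβne : β ≠ 0 := norm_pos_iff.mp hβ0
    have h1 : U r + β • v = β • (β⁻¹ • U r + v) := by
      rw [smul_add, smul_smul, mul_inv_cancel₀ hβne, one_smul]
    rw [h1, hom] at hβ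
    have h2 : f (β⁻¹ • U r + v) ≠ 0 := by
      apply hδ'
      rw [add_sub_cancel_right, norm_smul, norm_inv]
      rw [inv_mul_lt_iff₀ hβ0]
      calc ‖U r‖ ≤ M := hM r (mem_univ _)
        _ < ‖β‖ * δ := by rwa [div_lt_iff₀ hδ] at hlt
    exact (mul_ne_zero (pow_ne_zero _ hβne) h2) hβ
  have hclosed : IsClosed S := by
    let Z : Set (unitInterval × ℂ) := {p | 0 ≤ p.2.re ∧ f (U p.1 + p.2 • v) = 0}
    have hZc : IsClosed Z := by
      apply IsClosed.inter
      · exact isClosed_le continuous_const (Complex.continuous_re.comp continuous_snd)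
      · apply isClosed_eq _ continuous_const
        apply cont.comp
        apply Continuous.add (hU.comp continuous_fst)
        exact Continuous.smul continuous_snd continuous_const
    have hsub : Z ⊆ (univ : Set unitInterval) ×ˢ Metric.closedBall (0 : ℂ) (M / δ) := by
      intro p hp
      refine ⟨mem_univ _, ?_⟩
      rw [mem_closedBall_zero_iff]
      exact hbig p.1 p.2 hp.2
    have hcomp : IsCompact Z :=
      (isCompact_univ.prod (isCompact_closedBall _ _)).of_isClosed_subset hZc hsub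
    have hS : S = Prod.fst '' Z := by
      ext r
      constructor
      · rintro ⟨β, h1, h2⟩
        exact ⟨(r, β), ⟨h1, h2⟩, rfl⟩
      · rintro ⟨⟨r', β⟩, ⟨h1, h2⟩, rfl⟩
        exact ⟨β, h1, h2⟩
    rw [hS]
    exact (hcomp.image continuous_fst).isClosed
  have hopen : IsOpen S := by
    rw [isOpen_iff_eventually]
    rintro r₀ ⟨β₀, h1, h2⟩
    have hpos : 0 < β₀.re := by
      rcases h1.lt_or_eq with h | h
      · exact h
      · exfalso
        have h3 : β₀ = (β₀.im : ℂ) * I := by
          apply Complex.ext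
          · simp [← h]
          · simp
        exact hb r₀ r₀.2.1 r₀.2.2 β₀.im (by rw [← h3]; exact h2)
    have hc : Continuous fun r : unitInterval => ‖f (U r + β₀ • v)‖ :=
      (cont.comp (hU.add continuous_const)).norm
    have hlt : ‖f (U r₀ + β₀ • v)‖ < ‖f v‖ * β₀.re ^ D := by
      rw [h2, norm_zero]
      exact mul_pos (norm_pos_iff.mpr hv) (pow_pos hpos _)
    filter_upwards [hc.continuousAt.eventually_lt continuousAt_const hlt] with r hr
    by_contra hrS
    obtain ⟨m, hm, hfac⟩ := fac (U r) v hv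
    have hroots : ∀ z ∈ m, z.re < 0 := by
      intro z hz
      by_contra hzr
      push Not at hzr
      apply hrS
      refine ⟨z, hzr, ?_⟩
      rw [hfac z]
      have : (m.map (fun w => z - w)).prod = 0 := by
        apply Multiset.prod_eq_zero
        rw [Multiset.mem_map]
        exact ⟨z, hz, sub_self z⟩
      rw [this, mul_zero]
    have hge : β₀.re ^ D ≤ ‖(m.map (fun z => β₀ - z)).prod‖ := by
      rw [← hm]
      apply pow_card_le_norm_prod m β₀ β₀.re hpos.le
      intro z hz
      calc β₀.re ≤ (β₀ - z).re := by rw [Complex.sub_re]; linarith [hroots z hz]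
        _ ≤ ‖β₀ - z‖ := Complex.re_le_norm _
    have : ‖f v‖ * β₀.re ^ D ≤ ‖f (U r + β₀ • v)‖ := by
      rw [hfac β₀, norm_mul]
      exact mul_le_mul_of_nonneg_left hge (norm_nonneg _)
    linarith
  have hempty : S = ∅ := by
    rcases isClopen_iff.mp ⟨hclosed, hopen⟩ with h | h
    · exact h
    · exfalso
      have : (0 : unitInterval) ∈ S := by rw [h]; exact mem_univ _
      obtain ⟨β, h1, h2⟩ := this
      exact h0 β h1 h2
  intro r hr0 hr1 β hβ hzero
  have : (⟨r, hr0, hr1⟩ : unitInterval) ∈ S := ⟨β, hβ, hzero⟩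
  rw [hempty] at this
  exact this

end Vale.Agent.P256
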