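import Vale.Agent.P256.Garding

/-!
# P256: hyperbolic polynomials give the analytic data
-/

namespace Vale.Agent.P256

open MvPolynomial Complex

variable {σ : Type} [Fintype σ]

lemma prod_coeff (s : Finset σ) (g : σ → Polynomial ℂ) (n : σ → ℕ)
    (h : ∀ i ∈ s, (g i).natDegree ≤ n i) :
    (∏ i ∈ s, g i).natDegree ≤ ∑ i ∈ s, n i ∧
      (∏ i ∈ s, g i).coeff (∑ i ∈ s, n i) = ∏ i ∈ s, (g i).coeff (n i) := by
  classical
  induction s using Finset.induction_on with
  | empty => simp
  | insert a s ha ih =>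
    have h1 := h a (Finset.mem_insert_self a s)
    obtain ⟨h2, h3⟩ := ih (fun i hi => h i (Finset.mem_insert_of_mem hi))
    rw [Finset.prod_insert ha, Finset.sum_insert ha, Finset.prod_insert ha]
    refine ⟨le_trans Polynomial.natDegree_mul_le (by omega), ?_⟩
    rw [Polynomial.coeff_mul_add_eq_of_natDegree_le h1 h2, h3]

lemma sum_of_homog {q : MvPolynomial σ ℝ} {D : ℕ} (hq : q.IsHomogeneous D) {d : σ →₀ ℕ}
    (hd : d ∈ q.support) : ∑ i, d i = D := by
  have h1 := hq (mem_support_iff.mp hd)
  rw [← h1, Finsupp.weight_apply, Finsupp.sum_fintype _ _ (by simp)]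
  simp

lemma exists_line (q : MvPolynomial σ ℝ) (D : ℕ) (hq : q.IsHomogeneous D) (u v : σ → ℂ) :
    ∃ P : Polynomial ℂ, P.natDegree ≤ D ∧ P.coeff D = aeval v q ∧
      ∀ β : ℂ, P.eval β = aeval (u + β • v) q := by
  let g : σ → Polynomial ℂ := fun i => Polynomial.C (u i) + Polynomial.C (v i) * Polynomial.X
  have hg : ∀ i, (g i).natDegree ≤ 1 := by
    intro i
    have : g i = Polynomial.C (v i) * Polynomial.X + Polynomial.C (u i) := add_comm _ _
    rw [this]
    exact Polynomial.natDegree_linear_le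
  have hgc : ∀ i, (g i).coeff 1 = v i := by
    intro i
    simp [g, Polynomial.coeff_C]
  have key : ∀ d : σ →₀ ℕ, d ∈ q.support →
      (∏ i, g i ^ d i).natDegree ≤ D ∧ (∏ i, g i ^ d i).coeff D = ∏ i, v i ^ d i := by
    intro d hd
    have hs := sum_of_homog hq hd
    have h1 := prod_coeff Finset.univ (fun i => g i ^ d i) (fun i => d i) (by
      intro i _
      refine le_trans Polynomial.natDegree_pow_le ?_
      calc d i * (g i).natDegree ≤ d i * 1 := Nat.mul_le_mul_left _ (hg i)
        _ = d i := mul_one _)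
    rw [hs] at h1
    refine ⟨h1.1, h1.2.trans ?_⟩
    apply Finset.prod_congr rfl
    intro i _
    have := Polynomial.coeff_pow_of_natDegree_le (m := d i) (hg i)
    rw [mul_one] at this
    rw [this, hgc]
  refine ⟨aeval g q, ?_, ?_, ?_⟩
  · rw [aeval_def, eval₂_eq']
    apply Polynomial.natDegree_sum_le_of_forall_le
    intro d hd
    have h2 : (algebraMap ℝ (Polynomial ℂ)) (coeff d q) = Polynomial.C ((coeff d q : ℝ) : ℂ) := rfl
    rw [h2]
    exact le_trans (Polynomial.natDegree_C_mul_le _ _) (key d hd).1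
  · rw [aeval_def, aeval_def, eval₂_eq', eval₂_eq', Polynomial.finsetSum_coeff]
    apply Finset.sum_congr rfl
    intro d hd
    have h2 : (algebraMap ℝ (Polynomial ℂ)) (coeff d q) = Polynomial.C ((coeff d q : ℝ) : ℂ) := rfl
    rw [h2, Polynomial.coeff_C_mul, (key d hd).2]
    rfl
  · intro β
    have h1 := comp_aeval_apply (f := g) ((Polynomial.aeval (R := ℂ) β).restrictScalars ℝ) q
    have h2 : ((Polynomial.aeval (R := ℂ) β).restrictScalars ℝ) (aeval g q) =
        (aeval g q : Polynomial ℂ).eval β := by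
      simp [Polynomial.coe_aeval_eq_eval]
    rw [← h2, h1]
    congr 2
    funext i
    simp [g, Polynomial.coe_aeval_eq_eval]
    ring

lemma aeval_cx (q : MvPolynomial σ ℝ) (x : σ → ℝ) : aeval (cx x) q = ((eval x q : ℝ) : ℂ) := by
  have h := comp_aeval_apply (f := x) (Algebra.ofId ℝ ℂ) q
  have h2 : aeval x q = eval x q := by
    rw [aeval_def]; rfl
  rw [h2] at h
  exact h.symm

lemma aeval_smul {q : MvPolynomial σ ℝ} {D : ℕ} (hq : q.IsHomogeneous D) (c : ℂ) (w : σ → ℂ) :
    aeval (c • w) q = c ^ D * aeval w q := by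
  rw [aeval_def, aeval_def, eval₂_eq', eval₂_eq', Finset.mul_sum]
  apply Finset.sum_congr rfl
  intro d hd
  have hs := sum_of_homog hq hd
  have h1 : ∏ i, (c • w) i ^ d i = c ^ D * ∏ i, w i ^ d i := by
    rw [← hs, ← Finset.prod_pow_eq_pow_sum, ← Finset.prod_mul_distrib]
    apply Finset.prod_congr rfl
    intro i _
    rw [Pi.smul_apply, smul_eq_mul, mul_pow]
  rw [h1]
  ring

/-- A nonconstant hyperbolic polynomial provides the analytic data. -/
theorem hypFun {q : MvPolynomial σ ℝ} {e : σ → ℝ} (hq : Hyperbolic q e) {D : ℕ}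
    (hD : q.IsHomogeneous D) (hpos : 0 < D) : HypFun D (fun w => aeval w q) e := by
  obtain ⟨-, he, hroots⟩ := hq
  refine ⟨hpos, ?_, ?_, ?_, ?_, ?_, ?_⟩
  · have h : (fun w : σ → ℂ => aeval w q) = fun w => eval w (map (algebraMap ℝ ℂ) q) := by
      funext w
      rw [aeval_def, eval₂_eq_eval_map]
    rw [h]
    exact continuous_eval _
  · intro c w
    exact aeval_smul hD c w
  · intro u v hv
    obtain ⟨P, hP1, hP2, hP3⟩ := exists_line q D hD u v
    have hv' : P.coeff D ≠ 0 := by rw [hP2]; exact hv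
    have hdeg : P.natDegree = D := le_antisymm hP1 (Polynomial.le_natDegree_of_ne_zero hv')
    have hlead : P.leadingCoeff = aeval v q := by
      rw [Polynomial.leadingCoeff, hdeg, hP2]
    refine ⟨P.roots, ?_, ?_⟩
    · rw [IsAlgClosed.card_roots_eq_natDegree, hdeg]
    · intro β
      change aeval (u + β • v) q = _
      rw [← hP3, (IsAlgClosed.splits P).eval_eq_prod_roots, hlead]
  · intro w
    have h := comp_aeval_apply (f := w) (Complex.conjAe.toAlgHom) q
    exact h.symm
  · change aeval (cx e) q ≠ 0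
    rw [aeval_cx]
    exact_mod_cast he.ne'
  · intro x β h
    apply hroots (-x) β
    rw [← h]
    congr 2
    funext i
    simp [cx]

lemma hcone_eq {q : MvPolynomial σ ℝ} {e : σ → ℝ} {D : ℕ} (hD : q.IsHomogeneous D) :
    hcone q e = Kc (fun w => aeval w q) e := by
  ext x
  constructor
  · intro hx s hs h
    have h1 : ((s : ℝ) : ℂ) • cx e + cx x = cx (s • e + x) := by rw [cx_add, cx_smul]
    have h2 : aeval (cx (s • e + x)) q = (0 : ℂ) := by rw [← h1]; exact h
    have h3 : aeval ((-1 : ℂ) • cx (s • e + x)) q = (0 : ℂ) := by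
      rw [aeval_smul hD, h2, mul_zero]
    have h4 : (-1 : ℂ) • cx (s • e + x) = cx (fun i => -s * e i - x i) := by
      funext i
      simp [cx]
      ring
    rw [h4, aeval_cx] at h3
    have h5 := hx (-s) (by exact_mod_cast h3)
    linarith
  · intro hx t ht
    by_contra hneg
    push Not at hneg
    apply hx (-t) (by linarith)
    have h1 : aeval (cx (fun i => t * e i - x i)) q = (0 : ℂ) := by
      rw [aeval_cx, ht]; simp
    have h4 : ((-t : ℝ) : ℂ) • cx e + cx x = (-1 : ℂ) • cx (fun i => t * e i - x i) := by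
      funext i
      simp [cx]
      ring
    change aeval (((-t : ℝ) : ℂ) • cx e + cx x) q = 0
    rw [h4, aeval_smul hD, h1, mul_zero]

end Vale.Agent.P256
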