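import Vale.Agent.P256.Defs

/-!
# P256: semidefinite lift of the extended cone
-/

namespace Vale.Agent.P256

open Matrix

/-- quadratic form criterion -/
lemma psd_iff {n : Type} [Fintype n] (M : Matrix n n ℝ) :
    M.PosSemidef ↔ M.IsSymm ∧ ∀ x : n → ℝ, 0 ≤ ∑ i, ∑ j, x i * M i j * x j := by
  rw [posSemidef_iff_dotProduct_mulVec, isHermitian_iff_isSymm]
  apply and_congr_right
  intro _
  apply forall_congr'
  intro x
  have : star x ⬝ᵥ (M *ᵥ x) = ∑ i, ∑ j, x i * M i j * x j := by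
    simp [dotProduct, mulVec, Finset.mul_sum, mul_assoc]
  rw [this]

/-- Shadows described with linear maps. -/
def Sh {V : Type} [AddCommGroup V] [Module ℝ V] (K : Set V) : Prop :=
  ∃ (κ : Type) (_ : Fintype κ) (W : Type) (_ : AddCommGroup W) (_ : Module ℝ W)
    (_ : Module.Finite ℝ W) (M₀ : Matrix κ κ ℝ) (F : V →ₗ[ℝ] Matrix κ κ ℝ)
    (G : W →ₗ[ℝ] Matrix κ κ ℝ), M₀.IsSymm ∧ (∀ v, (F v).IsSymm) ∧ (∀ w, (G w).IsSymm) ∧
    K = {v | ∃ w, (M₀ + F v + G w).PosSemidef}

lemma sh_of_isShadow {ι : Type} [Fintype ι] {K : Set (ι → ℝ)} (h : IsShadow K) : Sh K := by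
  obtain ⟨N, a, A₀, A, B, h0, hA, hB, rfl⟩ := h
  refine ⟨Fin N, inferInstance, Fin a → ℝ, inferInstance, inferInstance, inferInstance, A₀,
    Fintype.linearCombination ℝ A, Fintype.linearCombination ℝ B, h0, ?_, ?_, ?_⟩
  · intro v
    rw [Fintype.linearCombination_apply, IsSymm, transpose_sum]
    apply Finset.sum_congr rfl
    intro i _
    rw [transpose_smul, hA i]
  · intro v
    rw [Fintype.linearCombination_apply, IsSymm, transpose_sum]
    apply Finset.sum_congr rfl
    intro i _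
    rw [transpose_smul, hB i]
  · rfl

lemma isShadow_of_sh {ι : Type} [Fintype ι] {K : Set (ι → ℝ)} (h : Sh K) : IsShadow K := by
  classical
  obtain ⟨κ, _, W, _, _, _, M₀, F, G, h0, hF, hG, rfl⟩ := h
  let eqv := Fintype.equivFin κ
  let bas := Module.finBasis ℝ W
  refine ⟨Fintype.card κ, Module.finrank ℝ W, M₀.submatrix eqv.symm eqv.symm,
    fun i => (F (fun j => if i = j then 1 else 0)).submatrix eqv.symm eqv.symm,
    fun j => (G (bas j)).submatrix eqv.symm eqv.symm, h0.submatrix _, fun i => (hF _).submatrix _,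
    fun j => (hG _).submatrix _, ?_⟩
  have key : ∀ (x : ι → ℝ) (u : Fin (Module.finrank ℝ W) → ℝ),
      (M₀.submatrix eqv.symm eqv.symm +
        ∑ i, x i • (F (fun j => if i = j then 1 else 0)).submatrix eqv.symm eqv.symm +
        ∑ j, u j • (G (bas j)).submatrix eqv.symm eqv.symm) =
      (M₀ + F x + G (∑ j, u j • bas j)).submatrix eqv.symm eqv.symm := by
    intro x u
    rw [LinearMap.pi_apply_eq_sum_univ F x, map_sum]
    ext i j
    simp [Matrix.sum_apply]
  ext x
  constructor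
  · rintro ⟨w, hw⟩
    refine ⟨bas.equivFun w, ?_⟩
    rw [key, bas.sum_equivFun]
    exact hw.submatrix _
  · rintro ⟨u, hu⟩
    rw [key] at hu
    exact ⟨_, (posSemidef_submatrix_equiv _).mp hu⟩

/-- slices of shadows -/
theorem isShadow_slice {σ τ : Type} [Fintype σ] [Fintype τ] (K : Set ((Unit ⊕ σ ⊕ τ) → ℝ))
    (hK : IsShadow K) :
    IsShadow {y : σ → ℝ | (Sum.elim (fun _ => 1) (Sum.elim y (fun _ => 0)) :
      (Unit ⊕ σ ⊕ τ) → ℝ) ∈ K} := by
  obtain ⟨κ, _, W, _, _, _, M₀, F, G, h0, hF, hG, rfl⟩ := sh_of_isShadow hK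
  let lin : (σ → ℝ) →ₗ[ℝ] ((Unit ⊕ σ ⊕ τ) → ℝ) :=
    { toFun := fun y => Sum.elim (fun _ => 0) (Sum.elim y (fun _ => 0))
      map_add' := by
        intro x y
        funext i
        rcases i with i | i | i <;> simp
      map_smul' := by
        intro c y
        funext i
        rcases i with i | i | i <;> simp }
  let e0 : (Unit ⊕ σ ⊕ τ) → ℝ := Sum.elim (fun _ => 1) (Sum.elim (fun _ => 0) (fun _ => 0))
  have hsum : ∀ y : σ → ℝ, (Sum.elim (fun _ => 1) (Sum.elim y (fun _ => 0)) :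
      (Unit ⊕ σ ⊕ τ) → ℝ) = e0 + lin y := by
    intro y
    funext i
    rcases i with i | i | i <;> simp [e0, lin]
  apply isShadow_of_sh
  refine ⟨κ, inferInstance, W, inferInstance, inferInstance, inferInstance, M₀ + F e0,
    F.comp lin, G, h0.add (hF _), fun v => hF _, hG, ?_⟩
  ext y
  rw [Set.mem_ofPred_eq, hsum y]
  constructor
  · rintro ⟨w, hw⟩
    refine ⟨w, ?_⟩
    rw [map_add] at hw
    rw [LinearMap.comp_apply, add_assoc M₀]
    exact hw
  · rintro ⟨w, hw⟩
    refine ⟨w, ?_⟩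
    rw [map_add]
    rw [LinearMap.comp_apply, add_assoc M₀] at hw
    exact hw

/-- block diagonal matrices -/
lemma psd_diag {m n : Type} [Fintype m] [Fintype n] (A : Matrix m m ℝ) (D : Matrix n n ℝ) :
    (fromBlocks A 0 0 D).PosSemidef ↔ A.PosSemidef ∧ D.PosSemidef := by
  constructor
  · intro h
    exact ⟨h.submatrix Sum.inl, h.submatrix Sum.inr⟩
  · rintro ⟨hA, hD⟩
    rw [psd_iff] at hA hD ⊢
    refine ⟨?_, ?_⟩
    · rw [isSymm_fromBlocks_iff]
      exact ⟨hA.1, by simp, by simp, hD.1⟩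
    · intro x
      have h1 := hA.2 (fun i => x (Sum.inl i))
      have h2 := hD.2 (fun i => x (Sum.inr i))
      simp only [Fintype.sum_sum_type, fromBlocks_apply₁₁, fromBlocks_apply₁₂, fromBlocks_apply₂₁,
        fromBlocks_apply₂₂, Matrix.zero_apply, mul_zero, zero_mul, Finset.sum_const_zero, add_zero,
        zero_add]
      exact add_nonneg h1 h2

/-- the bordered matrix -/
def bord {τ : Type} (x₀ : ℝ) (k : τ → ℝ) (S : Matrix τ τ ℝ) : Matrix (Unit ⊕ τ) (Unit ⊕ τ) ℝ :=
  fromBlocks (of fun _ _ => x₀) (of fun _ j => k j) (of fun j _ => k j) S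

lemma bord_symm {τ : Type} (x₀ : ℝ) (k : τ → ℝ) {S : Matrix τ τ ℝ} (hS : S.IsSymm) :
    (bord x₀ k S).IsSymm := by
  rw [bord, isSymm_fromBlocks_iff]
  refine ⟨?_, ?_, ?_, hS⟩
  · ext i j; rfl
  · ext i j; rfl
  · ext i j; rfl

lemma psd_bord {τ : Type} [Fintype τ] (x₀ : ℝ) (k : τ → ℝ) (S : Matrix τ τ ℝ) :
    (bord x₀ k S).PosSemidef ↔ S.IsSymm ∧ ∀ (a : ℝ) (v : τ → ℝ),
      0 ≤ x₀ * (a * a) + (2 * ∑ j, k j * v j) * a + ∑ i, ∑ j, v i * S i j * v j := by
  have hval : ∀ (a : ℝ) (v : τ → ℝ),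
      (∑ i, ∑ j, (Sum.elim (fun _ => a) v : Unit ⊕ τ → ℝ) i * bord x₀ k S i j *
        (Sum.elim (fun _ => a) v : Unit ⊕ τ → ℝ) j) =
      x₀ * (a * a) + (2 * ∑ j, k j * v j) * a + ∑ i, ∑ j, v i * S i j * v j := by
    intro a v
    simp only [Fintype.sum_sum_type, bord, fromBlocks_apply₁₁, fromBlocks_apply₁₂,
      fromBlocks_apply₂₁, fromBlocks_apply₂₂, Sum.elim_inl, Sum.elim_inr, of_apply,
      Finset.univ_unique, Finset.sum_singleton, Finset.sum_add_distrib]
    have h1 : ∑ x : τ, a * k x * v x = a * ∑ j, k j * v j := by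
      rw [Finset.mul_sum]
      apply Finset.sum_congr rfl
      intro j _
      ring
    have h2 : ∑ x : τ, v x * k x * a = a * ∑ j, k j * v j := by
      rw [Finset.mul_sum]
      apply Finset.sum_congr rfl
      intro j _
      ring
    rw [h1, h2]
    ring
  rw [psd_iff]
  constructor
  · rintro ⟨h1, h2⟩
    refine ⟨?_, ?_⟩
    · have := (isSymm_fromBlocks_iff.mp h1).2.2.2
      exact this
    · intro a v
      rw [← hval]
      exact h2 _
  · rintro ⟨h1, h2⟩
    refine ⟨bord_symm x₀ k h1, ?_⟩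
    intro x
    have hx : x = Sum.elim (fun _ => x (Sum.inl ())) (fun j => x (Sum.inr j)) := by
      funext i
      rcases i with i | i <;> rfl
    rw [hx, hval]
    exact h2 _ _

section cone

variable {σ τ : Type} [Fintype τ]

/-- the bilinear map -/
def bil (b : τ → τ → σ → ℝ) (h n : τ → ℝ) : σ → ℝ := fun i => ∑ j, ∑ k, b j k i * (h j * n k)

/-- the linear extension to matrices -/
def calB (b : τ → τ → σ → ℝ) : Matrix τ τ ℝ →ₗ[ℝ] (σ → ℝ) where
  toFun Z := fun i => ∑ j, ∑ k, b j k i * Z j k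
  map_add' := by
    intro Y Z
    funext i
    simp [mul_add, Finset.sum_add_distrib]
  map_smul' := by
    intro c Z
    funext i
    simp only [Matrix.smul_apply, smul_eq_mul, RingHom.id_apply, Pi.smul_apply, Finset.mul_sum]
    apply Finset.sum_congr rfl
    intro j _
    apply Finset.sum_congr rfl
    intro k _
    ring

lemma quad_add_smul {b : τ → τ → σ → ℝ} (hsymm : ∀ j k, b j k = b k j) (h n : τ → ℝ) (t : ℝ) :
    quad b (h + t • n) = quad b h + (2 * t) • bil b h n + (t ^ 2) • quad b n := by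
  funext i
  have hs : ∑ j, ∑ k, b j k i * (n j * h k) = ∑ j, ∑ k, b j k i * (h j * n k) := by
    rw [Finset.sum_comm]
    apply Finset.sum_congr rfl
    intro j _
    apply Finset.sum_congr rfl
    intro k _
    rw [hsymm k j]
    ring
  simp only [quad, bil, Pi.add_apply, Pi.smul_apply, smul_eq_mul]
  calc ∑ j, ∑ k, b j k i * ((h j + t * n j) * (h k + t * n k))
      = ∑ j, ∑ k, b j k i * (h j * h k) + t * ∑ j, ∑ k, b j k i * (h j * n k) +
        t * ∑ j, ∑ k, b j k i * (n j * h k) + t ^ 2 * ∑ j, ∑ k, b j k i * (n j * n k) := by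
        simp only [Finset.mul_sum, ← Finset.sum_add_distrib]
        apply Finset.sum_congr rfl
        intro j _
        apply Finset.sum_congr rfl
        intro k _
        ring
    _ = _ := by rw [hs]; ring

lemma quad_smul (b : τ → τ → σ → ℝ) (c : ℝ) (h : τ → ℝ) : quad b (c • h) = (c ^ 2) • quad b h := by
  funext i
  simp only [quad, Pi.smul_apply, smul_eq_mul, Finset.mul_sum]
  apply Finset.sum_congr rfl
  intro j _
  apply Finset.sum_congr rfl
  intro k _
  ring

lemma calB_rank_one (b : τ → τ → σ → ℝ) (v : τ → ℝ) : calB b (vecMulVec v v) = quad b v := by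
  funext i
  simp [calB, quad, vecMulVec_apply]

variable {K : Set (σ → ℝ)} {b : τ → τ → σ → ℝ}

lemma calB_mem (h0 : (0 : σ → ℝ) ∈ K) (hadd : ∀ x ∈ K, ∀ y ∈ K, x + y ∈ K)
    (hpos : ∀ h : τ → ℝ, quad b h ∈ K) {Z : Matrix τ τ ℝ} (hZ : Z.PosSemidef) :
    calB b Z ∈ K := by
  obtain ⟨m, v, rfl⟩ := posSemidef_iff_eq_sum_vecMulVec.mp hZ
  rw [map_sum]
  have : ∀ s : Finset (Fin m), ∑ i ∈ s, calB b (vecMulVec (v i) (star (v i))) ∈ K := by
    intro s
    classical
    induction s using Finset.induction_on with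
    | empty => simpa using h0
    | insert a s ha ih =>
      rw [Finset.sum_insert ha]
      apply hadd _ _ _ ih
      have : star (v a) = v a := star_trivial _
      rw [this, calB_rank_one]
      exact hpos _
  exact this _

lemma mixed_mem (hadd : ∀ x ∈ K, ∀ y ∈ K, x + y ∈ K)
    (hsmul : ∀ c : ℝ, 0 ≤ c → ∀ x ∈ K, c • x ∈ K)
    (hclosed : ∀ a ∈ K, ∀ x, (∀ ε : ℝ, 0 < ε → ε • a + x ∈ K) → x ∈ K)
    (hsymm : ∀ j k, b j k = b k j) (hpos : ∀ h : τ → ℝ, quad b h ∈ K)
    {n : τ → ℝ} (hn : -quad b n ∈ K) (h : τ → ℝ) (c : ℝ) : c • bil b h n ∈ K := by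
  apply hclosed (quad b h) (hpos h)
  intro ε hε
  have h1 := hadd _ (hpos (h + (c / (2 * ε)) • n)) _
    (hsmul ((c / (2 * ε)) ^ 2) (by positivity) _ hn)
  rw [quad_add_smul hsymm] at h1
  have h2 := hsmul ε hε.le _ h1
  have h3 : ε • (quad b h + (2 * (c / (2 * ε))) • bil b h n + (c / (2 * ε)) ^ 2 • quad b n +
      (c / (2 * ε)) ^ 2 • -quad b n) = ε • quad b h + c • bil b h n := by
    have h4 : ε * (2 * (c / (2 * ε))) = c := by field_simp
    calc _ = ε • quad b h + (ε * (2 * (c / (2 * ε)))) • bil b h n := by module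
      _ = _ := by rw [h4]
  rw [h3] at h2
  exact h2

/-- the subspace of vectors with `-B(n,n)` in the cone -/
def nullN (h0 : (0 : σ → ℝ) ∈ K) (hadd : ∀ x ∈ K, ∀ y ∈ K, x + y ∈ K)
    (hsmul : ∀ c : ℝ, 0 ≤ c → ∀ x ∈ K, c • x ∈ K)
    (hclosed : ∀ a ∈ K, ∀ x, (∀ ε : ℝ, 0 < ε → ε • a + x ∈ K) → x ∈ K)
    (hsymm : ∀ j k, b j k = b k j) (hpos : ∀ h : τ → ℝ, quad b h ∈ K) :
    Submodule ℝ (τ → ℝ) where
  carrier := {n | -quad b n ∈ K}
  zero_mem' := by
    have h1 : quad b (0 : τ → ℝ) = 0 := by funext i; simp [quad]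
    change -quad b 0 ∈ K
    rw [h1, neg_zero]
    exact h0
  add_mem' := by
    intro n₁ n₂ h1 h2
    change -quad b (n₁ + n₂) ∈ K
    have h3 := quad_add_smul hsymm n₁ n₂ 1
    rw [one_smul] at h3
    rw [h3]
    have h4 := mixed_mem hadd hsmul hclosed hsymm hpos h2 n₁ (-2)
    have h5 := hadd _ (hadd _ h1 _ h4) _ h2
    have h6 : -quad b n₁ + (-2 : ℝ) • bil b n₁ n₂ + -quad b n₂ =
        -(quad b n₁ + (2 * 1 : ℝ) • bil b n₁ n₂ + (1 : ℝ) ^ 2 • quad b n₂) := by module
    rw [← h6]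
    exact h5
  smul_mem' := by
    intro c n h1
    change -quad b (c • n) ∈ K
    rw [quad_smul, ← smul_neg]
    exact hsmul _ (by positivity) _ h1

/-- the lift, pointwise -/
lemma lift_iff (h0 : (0 : σ → ℝ) ∈ K) (hadd : ∀ x ∈ K, ∀ y ∈ K, x + y ∈ K)
    (hsmul : ∀ c : ℝ, 0 ≤ c → ∀ x ∈ K, c • x ∈ K)
    (hclosed : ∀ a ∈ K, ∀ x, (∀ ε : ℝ, 0 < ε → ε • a + x ∈ K) → x ∈ K)
    (hsymm : ∀ j k, b j k = b k j) (hpos : ∀ h : τ → ℝ, quad b h ∈ K)
    (x₀ : ℝ) (y : σ → ℝ) (h : τ → ℝ) :
    (0 ≤ x₀ ∧ y ∈ K ∧ x₀ • y - quad b h ∈ K) ↔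
      ∃ (n : τ → ℝ) (Z : Matrix τ τ ℝ), -quad b n ∈ K ∧
        (bord x₀ (h - n) (Z + Zᵀ)).PosSemidef ∧ y - calB b (Z + Zᵀ) ∈ K := by
  constructor
  · rintro ⟨hx, hy, hd⟩
    rcases hx.eq_or_lt with hx0 | hx0
    · refine ⟨h, 0, ?_, ?_, ?_⟩
      · rw [← hx0, zero_smul, zero_sub] at hd
        exact hd
      · rw [psd_bord]
        refine ⟨by simp [IsSymm], ?_⟩
        intro a v
        simp [← hx0]
      · simpa using hy
    · refine ⟨0, (1 / (2 * x₀)) • vecMulVec h h, ?_, ?_, ?_⟩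
      · have h1 : quad b (0 : τ → ℝ) = 0 := by funext i; simp [quad]
        rw [h1, neg_zero]
        exact h0
      · have hS : (1 / (2 * x₀)) • vecMulVec h h + ((1 / (2 * x₀)) • vecMulVec h h)ᵀ =
            (1 / x₀) • vecMulVec h h := by
          ext i j
          simp only [Matrix.add_apply, Matrix.smul_apply, vecMulVec_apply, transpose_apply,
            smul_eq_mul]
          field_simp
          ring
        rw [hS, psd_bord, sub_zero]
        refine ⟨?_, ?_⟩
        · ext i j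
          simp only [transpose_apply, Matrix.smul_apply, vecMulVec_apply, smul_eq_mul]
          ring
        · intro a v
          have h2 : ∑ i, ∑ j, v i * ((1 / x₀) • vecMulVec h h) i j * v j =
              (1 / x₀) * (∑ j, h j * v j) ^ 2 := by
            rw [pow_two, Finset.sum_mul_sum, Finset.mul_sum]
            apply Finset.sum_congr rfl
            intro i _
            rw [Finset.mul_sum]
            apply Finset.sum_congr rfl
            intro j _
            simp only [Matrix.smul_apply, vecMulVec_apply, smul_eq_mul]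
            ring
          rw [h2]
          have h3 : x₀ * (a * a) + (2 * ∑ j, h j * v j) * a + (1 / x₀) * (∑ j, h j * v j) ^ 2 =
              (1 / x₀) * (x₀ * a + ∑ j, h j * v j) ^ 2 := by
            field_simp
            ring
          rw [h3]
          positivity
      · have hS : (1 / (2 * x₀)) • vecMulVec h h + ((1 / (2 * x₀)) • vecMulVec h h)ᵀ =
            (1 / x₀) • vecMulVec h h := by
          ext i j
          simp only [Matrix.add_apply, Matrix.smul_apply, vecMulVec_apply, transpose_apply,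
            smul_eq_mul]
          field_simp
          ring
        rw [hS, map_smul, calB_rank_one]
        have h4 := hsmul (1 / x₀) (by positivity) _ hd
        rw [smul_sub, smul_smul, one_div, inv_mul_cancel₀ hx0.ne', one_smul] at h4
        rw [one_div]
        exact h4
  · rintro ⟨n, Z, hn, hp, hd⟩
    have hp' := hp
    rw [psd_bord] at hp
    obtain ⟨hS, hq⟩ := hp
    have hx : 0 ≤ x₀ := by
      have := hq 1 0
      simpa using this
    have hSp : (Z + Zᵀ).PosSemidef := by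
      rw [psd_iff]
      refine ⟨hS, ?_⟩
      intro v
      have := hq 0 v
      simpa using this
    have hy : y ∈ K := by
      have := hadd _ hd _ (calB_mem h0 hadd hpos hSp)
      rwa [sub_add_cancel] at this
    refine ⟨hx, hy, ?_⟩
    have hSchur : (x₀ • (Z + Zᵀ) - vecMulVec (h - n) (h - n)).PosSemidef := by
      rw [psd_iff]
      refine ⟨?_, ?_⟩
      · have h1 : (vecMulVec (h - n) (h - n))ᵀ = vecMulVec (h - n) (h - n) := by
          ext i j
          simp only [transpose_apply, vecMulVec_apply]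
          ring
        rw [IsSymm, transpose_sub, transpose_smul, hS, h1]
      · intro v
        have h2 : ∑ i, ∑ j, v i * (x₀ • (Z + Zᵀ) - vecMulVec (h - n) (h - n)) i j * v j =
            x₀ * (∑ i, ∑ j, v i * (Z + Zᵀ) i j * v j) - (∑ j, (h - n) j * v j) ^ 2 := by
          rw [pow_two, Finset.sum_mul_sum, Finset.mul_sum, ← Finset.sum_sub_distrib]
          apply Finset.sum_congr rfl
          intro i _
          rw [Finset.mul_sum, ← Finset.sum_sub_distrib]
          apply Finset.sum_congr rfl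
          intro j _
          simp only [Matrix.sub_apply, Matrix.smul_apply, vecMulVec_apply, smul_eq_mul]
          ring
        rw [h2]
        have h3 := discrim_le_zero (fun a => hq a v)
        rw [discrim] at h3
        nlinarith
    have h5 := hadd _ (hsmul x₀ hx _ hd) _ (calB_mem h0 hadd hpos hSchur)
    rw [map_sub, map_smul, calB_rank_one] at h5
    have hm := mixed_mem hadd hsmul hclosed hsymm hpos hn (h - n) (-2)
    have h6 := hadd _ (hadd _ h5 _ hm) _ hn
    have h7 : quad b h = quad b (h - n) + (2 : ℝ) • bil b (h - n) n + quad b n := by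
      have := quad_add_smul hsymm (h - n) n 1
      rw [one_smul, sub_add_cancel] at this
      rw [this]
      module
    have h8 : x₀ • (y - calB b (Z + Zᵀ)) + (x₀ • calB b (Z + Zᵀ) - quad b (h - n)) +
        (-2 : ℝ) • bil b (h - n) n + -quad b n = x₀ • y - quad b h := by
      rw [h7]
      module
    rw [h8] at h6
    exact h6

end cone

/-- the semidefinite lift of the extended cone -/
theorem isShadow_ext {σ τ : Type} [Fintype σ] [Fintype τ] (K : Set (σ → ℝ))
    (h0 : (0 : σ → ℝ) ∈ K) (hadd : ∀ x ∈ K, ∀ y ∈ K, x + y ∈ K)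
    (hsmul : ∀ c : ℝ, 0 ≤ c → ∀ x ∈ K, c • x ∈ K)
    (hclosed : ∀ a ∈ K, ∀ x, (∀ ε : ℝ, 0 < ε → ε • a + x ∈ K) → x ∈ K)
    (b : τ → τ → σ → ℝ) (hsymm : ∀ j k, b j k = b k j) (hpos : ∀ h : τ → ℝ, quad b h ∈ K)
    (hK : IsShadow K) :
    IsShadow {x : (Unit ⊕ σ ⊕ τ) → ℝ | 0 ≤ x (Sum.inl ()) ∧
      (fun i => x (Sum.inr (Sum.inl i))) ∈ K ∧
      (fun i => x (Sum.inl ()) * x (Sum.inr (Sum.inl i)) -
        quad b (fun j => x (Sum.inr (Sum.inr j))) i) ∈ K} := by
  classical
  apply isShadow_of_sh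
  have hK' := sh_of_isShadow hK
  obtain ⟨κ, _, W, _, _, _, M₀, F, G, hM, hF, hG, hKeq⟩ := hK'
  let N : Submodule ℝ (τ → ℝ) := nullN h0 hadd hsmul hclosed hsymm hpos
  -- linear maps
  let F' : ((Unit ⊕ σ ⊕ τ) → ℝ) →ₗ[ℝ] Matrix ((Unit ⊕ τ) ⊕ κ) ((Unit ⊕ τ) ⊕ κ) ℝ :=
    { toFun := fun x => fromBlocks (bord (x (Sum.inl ())) (fun j => x (Sum.inr (Sum.inr j))) 0) 0 0
        (F (fun i => x (Sum.inr (Sum.inl i))))
      map_add' := by
        intro x y
        have h1 : (fun i => (x + y) (Sum.inr (Sum.inl i))) =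
          (fun i => x (Sum.inr (Sum.inl i))) + (fun i => y (Sum.inr (Sum.inl i))) := rfl
        rw [h1, map_add]
        ext i j
        rcases i with (i | i) | i <;> rcases j with (j | j) | j <;> simp [bord]
      map_smul' := by
        intro c y
        have h1 : (fun i => (c • y) (Sum.inr (Sum.inl i))) =
          c • (fun i => y (Sum.inr (Sum.inl i))) := rfl
        rw [h1, map_smul]
        ext i j
        rcases i with (i | i) | i <;> rcases j with (j | j) | j <;> simp [bord] }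
  let G' : (N × Matrix τ τ ℝ × W) →ₗ[ℝ] Matrix ((Unit ⊕ τ) ⊕ κ) ((Unit ⊕ τ) ⊕ κ) ℝ :=
    { toFun := fun p => fromBlocks (bord 0 (-(p.1 : τ → ℝ)) (p.2.1 + p.2.1ᵀ)) 0 0
        (G p.2.2 - F (calB b (p.2.1 + p.2.1ᵀ)))
      map_add' := by
        intro p q
        have h1 : (p + q).2.1 + (p + q).2.1ᵀ = (p.2.1 + p.2.1ᵀ) + (q.2.1 + q.2.1ᵀ) := by
          simp only [Prod.snd_add, Prod.fst_add, transpose_add]
          abel
        have h2 : (p + q).2.2 = p.2.2 + q.2.2 := rfl
        rw [h1, h2, map_add, map_add, map_add]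
        ext i j
        rcases i with (i | i) | i <;> rcases j with (j | j) | j <;> simp [bord] <;> ring
      map_smul' := by
        intro c p
        have h1 : (c • p).2.1 + (c • p).2.1ᵀ = c • (p.2.1 + p.2.1ᵀ) := by
          simp only [Prod.smul_snd, Prod.smul_fst, transpose_smul, smul_add]
        have h2 : (c • p).2.2 = c • p.2.2 := rfl
        rw [h1, h2, map_smul, map_smul, map_smul]
        ext i j
        rcases i with (i | i) | i <;> rcases j with (j | j) | j <;> simp [bord] <;> ring }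
  have hsum : ∀ (x : (Unit ⊕ σ ⊕ τ) → ℝ) (n : N) (Z : Matrix τ τ ℝ) (w : W),
      fromBlocks 0 0 0 M₀ + F' x + G' (n, Z, w) =
      fromBlocks (bord (x (Sum.inl ())) ((fun j => x (Sum.inr (Sum.inr j))) - (n : τ → ℝ)) (Z + Zᵀ))
        0 0 (M₀ + F ((fun i => x (Sum.inr (Sum.inl i))) - calB b (Z + Zᵀ)) + G w) := by
    intro x n Z w
    rw [map_sub F]
    ext i j
    rcases i with (i | i) | i <;> rcases j with (j | j) | j <;> simp [bord, F', G'] <;> ring
  refine ⟨(Unit ⊕ τ) ⊕ κ, inferInstance, N × Matrix τ τ ℝ × W, inferInstance, inferInstance,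
    inferInstance, fromBlocks 0 0 0 M₀, F', G', ?_, ?_, ?_, ?_⟩
  · rw [isSymm_fromBlocks_iff]
    exact ⟨by simp [IsSymm], by simp, by simp, hM⟩
  · intro x
    change (fromBlocks _ _ _ _).IsSymm
    rw [isSymm_fromBlocks_iff]
    exact ⟨bord_symm _ _ (by simp [IsSymm]), by simp, by simp, hF _⟩
  · intro p
    change (fromBlocks _ _ _ _).IsSymm
    rw [isSymm_fromBlocks_iff]
    refine ⟨bord_symm _ _ ?_, by simp, by simp, (hG _).sub (hF _)⟩
    rw [IsSymm, transpose_add, transpose_transpose, add_comm]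
  · ext x
    rw [Set.mem_ofPred_eq, Set.mem_ofPred_eq]
    have key := lift_iff h0 hadd hsmul hclosed hsymm hpos (x (Sum.inl ()))
      (fun i => x (Sum.inr (Sum.inl i))) (fun j => x (Sum.inr (Sum.inr j)))
    refine Iff.trans key ?_
    constructor
    · rintro ⟨n, Z, hn, hb, hy⟩
      rw [hKeq] at hy
      obtain ⟨w, hw⟩ := hy
      refine ⟨(⟨n, hn⟩, Z, w), ?_⟩
      rw [hsum, psd_diag]
      exact ⟨hb, hw⟩
    · rintro ⟨⟨n, Z, w⟩, hp⟩
      rw [hsum, psd_diag] at hp
      refine ⟨n, Z, n.2, hp.1, ?_⟩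
      rw [hKeq]
      exact ⟨w, hp.2⟩

end Vale.Agent.P256
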